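import Vale.Agent.P335.Final

/-!
# P335: the Kannan-Tetali-Vempala conjecture for simple graphs

There is a polynomial `p` (explicitly `p(n) = n^6`) such that the mixing time of the switch chain on
the simple graphs with degree vector `d` is at most `p(n)`, for every `n ≥ 4` and every graphical
degree vector `d`; moreover the spectral gap of the chain is at least `1 / (18 * C(n,4))`.
-/

open scoped Classical

namespace Vale.Agent.Results.P335.KTVConjecture

open Vale.Agent.P335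

theorem result :
    (∃ p : Polynomial ℕ, ∀ n : ℕ, 4 ≤ n → ∀ d : Fin n → ℕ, Nonempty (Omega n d) →
      (mixedTimes d).Nonempty ∧ tmix d ≤ p.eval n) ∧
    (∀ n : ℕ, 4 ≤ n → ∀ d : Fin n → ℕ, Nonempty (Omega n d) →
      ∀ t : ℕ, n ^ 6 ≤ t → ∀ G : Omega n d, tv (fun H => (P d ^ t) G H) (unif d) ≤ 1 / 4) ∧
    (∀ n : ℕ, 4 ≤ n → ∀ d : Fin n → ℕ, ∀ f : Omega n d → ℝ, ∑ G, f G = 0 →
      (1 / (18 * (n.choose 4 : ℝ))) * ∑ G, f G ^ 2 ≤
        (1 / 2) * ∑ G, ∑ H, P d G H * (f G - f H) ^ 2) := by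
  refine ⟨⟨Polynomial.X ^ 6, fun n hn d hd => ?_⟩, fun n hn d hd t ht G => ?_,
    fun n hn d f hf => ?_⟩
  · have h := mixed_at hn d hd (n ^ 6) le_rfl
    refine ⟨⟨_, h⟩, ?_⟩
    rw [Polynomial.eval_pow, Polynomial.eval_X]
    exact Nat.sInf_le h
  · exact mixed_at hn d hd t ht G
  · exact gap_P hn d f hf

end Vale.Agent.Results.P335.KTVConjecture
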