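import Vale.Agent.P335.Final

/-!
# P335: the Kannan-Tetali-Vempala conjecture for simple graphs, second wording

The switch chain is run on all simple graphs on `Fin n` (it preserves degrees by itself): `law n t G`
is the distribution after `t` steps from `G`. The theorem: there is a polynomial `p` such that for all
`n ≥ 4` and every graphical degree vector `d` the mixing time exists and is at most `p(n)`.
-/

open scoped Classical

namespace Vale.Agent.Results.P335.KTVLaw

open Vale.Agent.P335

/-- the simple graphs on `Fin n` with degree `d v` at every vertex `v` -/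
noncomputable def graphs (n : ℕ) (d : Fin n → ℕ) : Finset (SimpleGraph (Fin n)) :=
  Finset.univ.filter fun G => ∀ v, G.degree v = d v

/-- probability that one step of the switch chain leads from `G` to `H`: with probability `1/2` stay
put; otherwise one of the `C(n,4) * 6` choices (a `4`-element set `S` and an ordered pair `(F, F')` of
distinct perfect matchings of the complete graph on `S`), uniformly, and replace `F` by `F'` if all of
`F` is present and all of `F'` is absent (`attempt`) -/
noncomputable def step (n : ℕ) (G H : SimpleGraph (Fin n)) : ℝ :=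
  (1 / 2) * (if H = G then 1 else 0) +
  (1 / 2) * ((∑ S ∈ (Finset.univ : Finset (Fin n)).powersetCard 4, ∑ p ∈ pairs S,
    (if H = attempt G p.1 p.2 then 1 else 0)) / ((n.choose 4 : ℝ) * 6))

/-- the probability that the chain started at `G` is at `H` after `t` steps -/
noncomputable def law (n : ℕ) : ℕ → SimpleGraph (Fin n) → SimpleGraph (Fin n) → ℝ
  | 0, G, H => if H = G then 1 else 0
  | t + 1, G, H => ∑ K, law n t G K * step n K H

/-- total variation distance to uniform on `graphs n d` after `t` steps from `G` -/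
noncomputable def dist (n : ℕ) (d : Fin n → ℕ) (t : ℕ) (G : SimpleGraph (Fin n)) : ℝ :=
  (1 / 2) * ∑ H ∈ graphs n d, |law n t G H - 1 / ((graphs n d).card : ℝ)|

theorem step_eq {n : ℕ} {d : Fin n → ℕ} (G H : Omega n d) : step n G.1 H.1 = P d G H := by
  rw [ChainP.P_eq]
  unfold step
  have h1 : (H.1 = G.1) ↔ (H = G) := ⟨fun h => Subtype.ext h, fun h => by rw [h]⟩
  have h2 : (∑ S ∈ (Finset.univ : Finset (Fin n)).powersetCard 4, ∑ p ∈ pairs S,
      (if H.1 = attempt G.1 p.1 p.2 then (1 : ℝ) else 0)) / ((n.choose 4 : ℝ) * 6) =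
      ∑ S ∈ (Finset.univ : Finset (Fin n)).powersetCard 4, (1 / (n.choose 4 : ℝ)) *
      ∑ p ∈ pairs S, (1 / 6) * (if H.1 = attempt G.1 p.1 p.2 then (1 : ℝ) else 0) := by
    rw [Finset.sum_div]
    refine Finset.sum_congr rfl fun S _ => ?_
    rw [← Finset.mul_sum]
    rw [div_eq_mul_inv, mul_inv]
    ring
  rw [h2]
  by_cases h : H = G
  · rw [if_pos h, if_pos (h1.mpr h)]
  · rw [if_neg h, if_neg (fun h' => h (h1.mp h'))]

theorem step_off {n : ℕ} {d : Fin n → ℕ} (G : Omega n d) (H : SimpleGraph (Fin n))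
    (hH : ¬ ∀ v, H.degree v = d v) : step n G.1 H = 0 := by
  unfold step
  rw [if_neg (fun h => hH (by rw [h]; exact G.2))]
  have h2 : (∑ S ∈ (Finset.univ : Finset (Fin n)).powersetCard 4, ∑ p ∈ pairs S,
      (if H = attempt G.1 p.1 p.2 then (1 : ℝ) else 0)) = 0 := by
    refine Finset.sum_eq_zero fun S _ => Finset.sum_eq_zero fun p hp => ?_
    rw [if_neg]
    intro h
    apply hH
    intro v
    have hp' := ChainP.mem_pairs.mp hp
    rw [h, ChainP.attempt_degree G.1 hp'.1 hp'.2.1 v]
    exact G.2 v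
  rw [h2]
  norm_num

theorem law_eq {n : ℕ} {d : Fin n → ℕ} (G : Omega n d) (t : ℕ) :
    (∀ H : Omega n d, law n t G.1 H.1 = (P d ^ t) G H) ∧
    (∀ H : SimpleGraph (Fin n), (¬ ∀ v, H.degree v = d v) → law n t G.1 H = 0) := by
  induction t with
  | zero =>
    refine ⟨fun H => ?_, fun H hH => ?_⟩
    · rw [pow_zero, Matrix.one_apply]
      unfold law
      by_cases h : G = H
      · rw [if_pos h, if_pos (by rw [h])]
      · rw [if_neg h, if_neg (fun h' => h (Subtype.ext h'.symm))]
    · unfold law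
      rw [if_neg (fun h => hH (by rw [h]; exact G.2))]
  | succ t ih =>
    have hsum : ∀ H : SimpleGraph (Fin n), law n (t + 1) G.1 H =
        ∑ K : Omega n d, law n t G.1 K.1 * step n K.1 H := by
      intro H
      rw [law]
      rw [← Finset.sum_filter_add_sum_filter_not Finset.univ
        (fun K : SimpleGraph (Fin n) => ∀ v, K.degree v = d v)]
      rw [Finset.sum_eq_zero (s := Finset.univ.filter
        (fun K : SimpleGraph (Fin n) => ¬ ∀ v, K.degree v = d v)), add_zero]
      · exact Finset.sum_subtype _ (fun K => by rw [Finset.mem_filter]; simp) _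
      · intro K hK
        rw [ih.2 K (Finset.mem_filter.mp hK).2, zero_mul]
    refine ⟨fun H => ?_, fun H hH => ?_⟩
    · rw [hsum, pow_succ, Matrix.mul_apply]
      exact Finset.sum_congr rfl fun K _ => by rw [ih.1 K, step_eq]
    · rw [hsum]
      exact Finset.sum_eq_zero fun K _ => by rw [step_off K H hH, mul_zero]

theorem sum_graphs {n : ℕ} (d : Fin n → ℕ) (f : SimpleGraph (Fin n) → ℝ) :
    ∑ H ∈ graphs n d, f H = ∑ H : Omega n d, f H.1 :=
  Finset.sum_subtype _ (fun K => by unfold graphs; rw [Finset.mem_filter]; simp) _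

theorem card_graphs {n : ℕ} (d : Fin n → ℕ) : (graphs n d).card = Fintype.card (Omega n d) := by
  unfold graphs
  rw [Fintype.card_subtype]

theorem dist_eq {n : ℕ} {d : Fin n → ℕ} (G : Omega n d) (t : ℕ) :
    dist n d t G.1 = tv (fun H => (P d ^ t) G H) (unif d) := by
  unfold dist tv unif
  rw [sum_graphs, card_graphs]
  congr 1
  exact Finset.sum_congr rfl fun H _ => by rw [(law_eq G t).1 H]

theorem result :
    ∃ p : Polynomial ℕ, ∀ n : ℕ, 4 ≤ n → ∀ d : Fin n → ℕ, (graphs n d).Nonempty →
      ∃ tmix : ℕ, IsLeast {t : ℕ | ∀ G ∈ graphs n d, dist n d t G ≤ 1 / 4} tmix ∧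
        tmix ≤ p.eval n := by
  refine ⟨Polynomial.X ^ 6, fun n hn d hd => ?_⟩
  obtain ⟨G₀, hG₀⟩ := hd
  have hne : Nonempty (Omega n d) := ⟨⟨G₀, (Finset.mem_filter.mp hG₀).2⟩⟩
  have hmem : n ^ 6 ∈ {t : ℕ | ∀ G ∈ graphs n d, dist n d t G ≤ 1 / 4} := by
    intro G hG
    have h := mixed_at hn d hne (n ^ 6) le_rfl ⟨G, (Finset.mem_filter.mp hG).2⟩
    rw [← dist_eq] at h
    exact h
  refine ⟨sInf {t : ℕ | ∀ G ∈ graphs n d, dist n d t G ≤ 1 / 4},
    ⟨Nat.sInf_mem ⟨_, hmem⟩, fun t ht => Nat.sInf_le ht⟩, ?_⟩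
  rw [Polynomial.eval_pow, Polynomial.eval_X]
  exact Nat.sInf_le hmem

end Vale.Agent.Results.P335.KTVLaw
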